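import Mathlib
import Vale.Agent.Lib.P043.Plane3
import Vale.Agent.Lib.P043.TileForm

/-!
Periodic tiling for tiles of `ℤ² × E`, `E` finite abelian, with a point alone in its fiber over `ℤ²`.
-/

/-- Let `E` be a finite abelian group, `F` a tile of `ℤ × ℤ × E`, and suppose some point `fs` of `F`
is the only point of `F` with its projection to `ℤ × ℤ`. Then `F` admits a periodic tiling. -/
theorem Vale.Agent.Results.P043.PlaneSingletonFiber.result {E : Type*} [AddCommGroup E] [Finite E]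
    (F : Finset (ℤ × ℤ × E)) (A : Set (ℤ × ℤ × E))
    (hA : ∀ g : ℤ × ℤ × E, ∃! p : (ℤ × ℤ × E) × (ℤ × ℤ × E), p.1 ∈ A ∧ p.2 ∈ F ∧ p.1 + p.2 = g)
    (fs : ℤ × ℤ × E) (hfs : fs ∈ F) (hfu : ∀ f ∈ F, f.1 = fs.1 → f.2.1 = fs.2.1 → f = fs) :
    ∃ (A' : Set (ℤ × ℤ × E)) (L : AddSubgroup (ℤ × ℤ × E)), L.FiniteIndex ∧
      (∀ h ∈ L, ∀ a, a + h ∈ A' ↔ a ∈ A') ∧
      ∀ g : ℤ × ℤ × E, ∃! p : (ℤ × ℤ × E) × (ℤ × ℤ × E), p.1 ∈ A' ∧ p.2 ∈ F ∧ p.1 + p.2 = g := by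
  obtain ⟨u, hu, hP⟩ := Vale.Agent.Lib.P043.exists_dilated F A hA
  obtain ⟨u', hu', hs, hper⟩ := Vale.Agent.Lib.P043.plane_singleton_fiber F u hu hP fs hfs
    (fun f hf h => hfu f hf (Prod.ext_iff.mp h).1 (Prod.ext_iff.mp h).2)
  exact Vale.Agent.Lib.P043.tiling_of_fun F u' hu' hs hper
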