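import Mathlib
import Vale.Agent.Lib.P043.Plane5

/-!
The periodic tiling conjecture for `ℤ² × ℤ/p`, `p` prime.
-/

/-- For every prime `p`, every finite tile `F` of the group `ℤ × ℤ × ZMod p` admits a periodic
tiling. -/
theorem Vale.Agent.Results.P043.PlaneTimesPrime.result {p : ℕ} (hp : p.Prime)
    (F : Finset (ℤ × ℤ × ZMod p)) (A : Set (ℤ × ℤ × ZMod p))
    (hA : ∀ g : ℤ × ℤ × ZMod p, ∃! q : (ℤ × ℤ × ZMod p) × (ℤ × ℤ × ZMod p),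
      q.1 ∈ A ∧ q.2 ∈ F ∧ q.1 + q.2 = g) :
    ∃ (A' : Set (ℤ × ℤ × ZMod p)) (L : AddSubgroup (ℤ × ℤ × ZMod p)), L.FiniteIndex ∧
      (∀ h ∈ L, ∀ a, a + h ∈ A' ↔ a ∈ A') ∧
      ∀ g : ℤ × ℤ × ZMod p, ∃! q : (ℤ × ℤ × ZMod p) × (ℤ × ℤ × ZMod p),
        q.1 ∈ A' ∧ q.2 ∈ F ∧ q.1 + q.2 = g :=
  haveI : Fact p.Prime := ⟨hp⟩
  Vale.Agent.Lib.P043.plane_Zp F A hA
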