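import Mathlib
import Vale.Agent.Lib.P043.Main

/-!
Periodic tiling conjecture for tiles of size `2 q`, `q` an odd prime, in every finitely generated
abelian group, in particular in `ℤ^d` for every `d`.
-/

/-- Every translational tile `F` of size `2 q` (`q` an odd prime) of a finitely generated abelian
group `G` admits a periodic tiling: a set `A'` with `A' ⊕ F = G`, invariant under a subgroup `L` of
finite index. -/
theorem Vale.Agent.Results.P043.TileTwicePrime.result {G : Type*} [AddCommGroup G] [AddGroup.FG G]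
    (F : Finset G) {q : ℕ} (hq : q.Prime) (hq2 : q ≠ 2) (hcard : F.card = 2 * q) (A : Set G)
    (hA : ∀ g : G, ∃! p : G × G, p.1 ∈ A ∧ p.2 ∈ F ∧ p.1 + p.2 = g) :
    ∃ (A' : Set G) (L : AddSubgroup G), L.FiniteIndex ∧ (∀ h ∈ L, ∀ a, a + h ∈ A' ↔ a ∈ A') ∧
      ∀ g : G, ∃! p : G × G, p.1 ∈ A' ∧ p.2 ∈ F ∧ p.1 + p.2 = g :=
  Vale.Agent.Lib.P043.main_final F hq hq2 hcard A hA
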