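import Vale.Agent.Results.P043.FiberedHyperplanes
import Vale.Agent.Results.P043.PlaneSingletonFiber
import Vale.Agent.Results.P043.PlaneTimesPrime
import Vale.Agent.Results.P043.TileTwicePrime

/-- The four results on periodic tilings, stated together. -/
theorem Vale.Agent.Results.P043.A0Conj.result :
    (type_of% @Vale.Agent.Results.P043.FiberedHyperplanes.result) ∧
    (type_of% @Vale.Agent.Results.P043.PlaneSingletonFiber.result) ∧
    (type_of% @Vale.Agent.Results.P043.PlaneTimesPrime.result) ∧
    (type_of% @Vale.Agent.Results.P043.TileTwicePrime.result) :=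
  ⟨@Vale.Agent.Results.P043.FiberedHyperplanes.result,
    @Vale.Agent.Results.P043.PlaneSingletonFiber.result,
    @Vale.Agent.Results.P043.PlaneTimesPrime.result,
    @Vale.Agent.Results.P043.TileTwicePrime.result⟩
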