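import Mathlib
import Vale.Agent.Lib.P043.Hyper3

/-!
Periodic tilings for tiles of a finitely generated abelian group, in particular of `ℤ ^ d`, with
few fiberings by parallel flats on which a character sums to zero.
-/

namespace Vale.Agent.Results.P043.FiberedHyperplanes

/-- `ℓ` is nonzero and some complex character `χ` of `G` sums to zero over `F ∩ {ℓ = c}` for every
level `c` of `ℓ` on `F`. -/
def Fibers {G : Type*} [AddCommGroup G] (F : Finset G) (ℓ : G →+ ℤ) : Prop :=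
  ℓ ≠ 0 ∧ ∃ χ : AddChar G ℂ, ∀ f0 ∈ F, ∑ f ∈ F.filter (fun f => ℓ f = ℓ f0), χ f = 0

/-- the functionals `ℓ₁`, `ℓ₂` are linearly independent: some two-by-two minor does not vanish -/
def Indep {G : Type*} [AddCommGroup G] (ℓ₁ ℓ₂ : G →+ ℤ) : Prop :=
  ∃ y₁ y₂ : G, ℓ₁ y₁ * ℓ₂ y₂ - ℓ₁ y₂ * ℓ₂ y₁ ≠ 0

/-- Let `F` be a tile of a finitely generated abelian group `G`. Assume (a) for all independent
`ℓ₁, ℓ₂ : G →+ ℤ` and every character `χ` of `G`, the sum of `χ` over some fiber of `(ℓ₁, ℓ₂)` on `F`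
is not zero; (b) for each `ℓ` with `Fibers F ℓ` there is a base point `f0 ∈ F` such that for every
other point `f ∈ F` on the level of `f0` there are no three pairwise independent functionals `ℓ'`
with `Fibers F ℓ'` vanishing on `f - f0`. Then `F` admits a periodic tiling. -/
theorem result {G : Type*} [AddCommGroup G] [AddGroup.FG G] (F : Finset G) (A : Set G)
    (hA : ∀ g : G, ∃! p : G × G, p.1 ∈ A ∧ p.2 ∈ F ∧ p.1 + p.2 = g)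
    (ha : ∀ ℓ₁ ℓ₂ : G →+ ℤ, Indep ℓ₁ ℓ₂ → ∀ χ : AddChar G ℂ, ∃ f0 ∈ F,
      ∑ f ∈ F.filter (fun f => ℓ₁ f = ℓ₁ f0 ∧ ℓ₂ f = ℓ₂ f0), χ f ≠ 0)
    (hb : ∀ ℓ : G →+ ℤ, Fibers F ℓ → ∃ f0 ∈ F, ∀ f ∈ F, f ≠ f0 → ℓ f = ℓ f0 →
      ¬ ∃ ℓ₁ ℓ₂ ℓ₃ : G →+ ℤ, Fibers F ℓ₁ ∧ Fibers F ℓ₂ ∧ Fibers F ℓ₃ ∧
        Indep ℓ₁ ℓ₂ ∧ Indep ℓ₁ ℓ₃ ∧ Indep ℓ₂ ℓ₃ ∧
        ℓ₁ (f - f0) = 0 ∧ ℓ₂ (f - f0) = 0 ∧ ℓ₃ (f - f0) = 0) :
    ∃ (A' : Set G) (L : AddSubgroup G), L.FiniteIndex ∧ (∀ h ∈ L, ∀ a, a + h ∈ A' ↔ a ∈ A') ∧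
      ∀ g : G, ∃! p : G × G, p.1 ∈ A' ∧ p.2 ∈ F ∧ p.1 + p.2 = g :=
  Vale.Agent.Lib.P043.fibered_hyperplanes F A hA ha hb

end Vale.Agent.Results.P043.FiberedHyperplanes
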